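import Vale.Agent.P329.Main

namespace Vale.Agent.Results.P329.HeightThree

open Vale.Agent.P329

theorem result {α : Type} [Fintype α] (L : Language α) (hL : L.IsRegular) :
    ∃ E : GRE α, E.lang = L ∧ E.sh ≤ 3 :=
  main L hL

end Vale.Agent.Results.P329.HeightThree
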